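import Mathlib
import Vale.Agent.P018.Bdl.B15

set_option linter.all false

/-! # P018: one row of a table gives admissibility on its own range; chains of rows
cover an interval of exponents. -/

namespace Vale.Agent.P018.R2.H677

open Finset Vale.Agent.P018.K2 Vale.Agent.P018.K3

/-- One correct row for the pair `(d, k)` gives all `a` with `κ0 ≤ k a / d ≤ κ1`. -/
theorem adm2_of_row (d k : ℕ) (hk : 1 ≤ k) (hkd : k ≤ d) (row : ℚ × ℚ × List (ℚ × ℚ))
    (hrow : rowOK d k row = true) (a : ℝ) (ha0 : 0 < a) (hr1 : (row.1 : ℝ) ≤ a / d * k)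
    (hr2 : a / d * k ≤ (row.2.1 : ℝ)) : Adm2 d k a := by
  have hd1 : 1 ≤ d := hk.trans hkd
  have hd0R : (0 : ℝ) < d := by exact_mod_cast hd1
  have hkR : (0 : ℝ) < k := by exact_mod_cast hk
  obtain ⟨w, hw⟩ : ∃ w : ℝ, w = a / d := ⟨_, rfl⟩
  have hw0 : 0 < w := by rw [hw]; positivity
  obtain ⟨κ, hκ⟩ : ∃ κ : ℝ, κ = w * k := ⟨_, rfl⟩
  have hκ0 : 0 < κ := by rw [hκ]; positivity
  rw [← hw, ← hκ] at hr1 hr2
  have hok := hrow
  unfold rowOK at hok
  simp only [Bool.and_eq_true, decide_eq_true_eq] at hok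
  obtain ⟨⟨⟨h1, h2⟩, h3⟩, h4⟩ := hok
  obtain ⟨κ0, κ1, l⟩ := row
  simp only at h1 h2 h3 h4 hr1 hr2
  -- the staircase
  obtain ⟨β, hβ⟩ : ∃ β : ℕ → ℚ, β = tb 1 l := ⟨_, rfl⟩
  have hanti : ∀ i, β (i + 1) ≤ β i := by rw [hβ]; exact tb_anti κ0 l 2 1 h3
  have hpos : ∀ i, 0 < β i := by rw [hβ]; exact tb_pos κ0 l 2 1 one_pos h3
  have hA : Antitone β := antitone_nat_of_succ_le hanti
  have hβ0 : β 0 = 1 := by rw [hβ, tb_zero]
  obtain ⟨L, hL⟩ : ∃ L : ℚ, L = (l.map Prod.snd).getLastD 1 := ⟨_, rfl⟩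
  have hlast : ∀ i, l.length ≤ i → β i = L := by
    intro i hi
    rw [hβ, hL, tb_ge l 1 i hi]
  refine ⟨fun r => w * (match r with
    | 0 => 1
    | r + 1 => (β r : ℝ)), ?_, ?_, ?_, ?_, ?_⟩
  · simp only [mul_one]
    exact hw
  · intro r
    cases r with
    | zero =>
      simp only
      rw [hβ0]
      simp
    | succ r =>
      simp only
      exact mul_le_mul_of_nonneg_left (by exact_mod_cast hanti r) hw0.le
  · rcases Nat.exists_eq_succ_of_ne_zero (by omega : d ≠ 0) with ⟨d', rfl⟩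
    rw [Nat.succ_sub_one]
    cases d' with
    | zero => simpa using hw0
    | succ r =>
      have : (0 : ℝ) < β r := by exact_mod_cast hpos r
      simp only
      positivity
  · intro r hr1' hr2' hlt
    obtain ⟨i, rfl⟩ : ∃ i, r = i + 1 := ⟨r - 1, by omega⟩
    rw [Nat.add_sub_cancel] at hlt
    cases i with
    | zero =>
      exfalso
      simp only [hβ0] at hlt
      simp at hlt
    | succ i =>
      simp only at hlt
      have hlt' : β (i + 1) < β i := by
        have := lt_of_mul_lt_mul_left hlt hw0.le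
        exact_mod_cast this
      rw [hβ] at hlt'
      obtain ⟨p, hp1, hp2⟩ := tb_step κ0 l 2 1 h3 i hlt'
      rw [show 2 + i = i + 1 + 1 by ring] at hp1
      have := crit_of_step d k (i + 1 + 1) hd1 hk (by omega) a ha0 (κ0 := κ0)
        (by rw [← hw, ← hκ]; exact hr1) hp1
      simp only
      rw [← hw, hp2] at this
      rw [hβ]
      exact this
  · -- the sum
    obtain ⟨e, he⟩ : ∃ e, d = l.length + 2 + e := ⟨d - (l.length + 2), by omega⟩
    rw [← Finset.mul_sum]
    have hsum : ∑ r ∈ range d, (match r with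
        | 0 => (1 : ℝ)
        | r + 1 => (β r : ℝ)) = 2 + ((l.map Prod.snd).sum : ℚ) + e * (L : ℝ) := by
      rw [he, show l.length + 2 + e = (l.length + 1 + e) + 1 by ring, sum_range_succ']
      simp only
      rw [sum_range_add]
      have hs1 : ∑ i ∈ range (l.length + 1), (β i : ℝ) = 1 + ((l.map Prod.snd).sum : ℚ) := by
        rw [← Rat.cast_sum, hβ, tb_sum l 1]
        push_cast
        ring
      have hs2 : ∑ i ∈ range e, (β (l.length + 1 + i) : ℝ) = e * (L : ℝ) := by
        rw [sum_congr rfl fun i _ => by rw [hlast (l.length + 1 + i) (by omega)], sum_const,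
          card_range, nsmul_eq_mul]
      rw [hs1, hs2]
      ring
    rw [hsum]
    obtain ⟨S, hS⟩ : ∃ S : ℝ, S = 2 + (((l.map Prod.snd).sum : ℚ) : ℝ) := ⟨_, rfl⟩
    have hL0 : (0 : ℝ) < L := by
      rw [← hlast l.length le_rfl]
      exact_mod_cast hpos _
    have h4' : (κ1 : ℝ) * (S + ((d : ℝ) - 2 - l.length) * (L : ℝ)) < k := by
      rw [hS, hL]
      exact_mod_cast h4
    have hdR2 : (d : ℝ) = l.length + 2 + e := by exact_mod_cast he
    rw [← hS]
    have hSp : 0 ≤ S + e * (L : ℝ) := by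
      have hs3 : (0 : ℝ) ≤ ∑ i ∈ range (l.length + 1), (β i : ℝ) :=
        Finset.sum_nonneg fun i _ => by exact_mod_cast (hpos i).le
      have hs4 : ∑ i ∈ range (l.length + 1), (β i : ℝ) = 1 + ((l.map Prod.snd).sum : ℚ) := by
        rw [← Rat.cast_sum, hβ, tb_sum l 1]
        push_cast
        ring
      have h8 : 0 ≤ (e : ℝ) * (L : ℝ) := by (clear * - hL0; positivity)
      rw [hs4] at hs3
      rw [hS]
      linarith only [h8, hs3]
    have h6 : (e : ℝ) = d - 2 - l.length := by linarith only [hdR2]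
    have e3 : κ1 * (S + e * (L : ℝ)) < k := by
      rw [h6]
      exact h4'
    have e4 : w * (S + e * (L : ℝ)) * k < 1 * k := by
      calc w * (S + e * (L : ℝ)) * k = κ * (S + e * (L : ℝ)) := by rw [hκ]; ring
        _ ≤ κ1 * (S + e * (L : ℝ)) := mul_le_mul_of_nonneg_right hr2 hSp
        _ < k := e3
        _ = 1 * k := (one_mul _).symm
    exact lt_of_mul_lt_mul_right e4 hkR.le

/-- the rows cover `[K, H]` (units `1/10000`) -/
def rCover (H : ℕ) : ℕ → List (ℕ × ℕ × List (ℕ × ℕ)) → Bool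
  | K, [] => decide (H ≤ K)
  | K, row :: tab => decide (row.1 ≤ K) && rCover H row.2.1 tab

/-- a nonempty list of correct rows for `(d, k)` which covers `[K, H]` -/
noncomputable def rTab (d k K H : ℕ) : List (ℕ × ℕ × List (ℕ × ℕ)) → Bool
  | [] => false
  | row :: tab => (row :: tab).all (fRow d k cs38) && rCover H K (row :: tab)

theorem rCover_row (H : ℕ) (κ : ℝ) (hκ : κ ≤ (H : ℝ) / 10000)
    (tab : List (ℕ × ℕ × List (ℕ × ℕ))) : ∀ K : ℕ, rCover H K tab = true →
      (K : ℝ) / 10000 < κ ∨ ((K : ℝ) / 10000 ≤ κ ∧ tab ≠ []) →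
      ∃ row ∈ tab, (row.1 : ℝ) / 10000 ≤ κ ∧ κ ≤ (row.2.1 : ℝ) / 10000 := by
  induction tab with
  | nil =>
    intro K h1 h2
    rw [rCover, decide_eq_true_eq] at h1
    rcases h2 with h2 | h2
    · have : (H : ℝ) ≤ K := by exact_mod_cast h1
      linarith
    · exact absurd rfl h2.2
  | cons row tab ih =>
    intro K h1 h2
    rw [rCover, Bool.and_eq_true, decide_eq_true_eq] at h1
    have h3 : (K : ℝ) / 10000 ≤ κ := by
      rcases h2 with h2 | h2
      · exact h2.le
      · exact h2.1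
    have h4 : (row.1 : ℝ) ≤ K := by exact_mod_cast h1.1
    rcases le_or_gt κ ((row.2.1 : ℝ) / 10000) with h5 | h5
    · exact ⟨row, List.mem_cons_self, by linarith, h5⟩
    · obtain ⟨row', h6, h7⟩ := ih row.2.1 h1.2 (Or.inl h5)
      exact ⟨row', List.mem_cons_of_mem _ h6, h7⟩

/-- Rows which cover `[K, H]` (units `1/10000`) give all `a` with `k a / d` in this range. -/
theorem adm2_of_rTab (d k K H : ℕ) (hk : 1 ≤ k) (hkd : k ≤ d)
    (tab : List (ℕ × ℕ × List (ℕ × ℕ))) (h : rTab d k K H tab = true) (a : ℝ) (ha : 0 < a)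
    (h0 : (K : ℝ) * d ≤ 10000 * k * a) (h1 : 10000 * k * a ≤ (H : ℝ) * d) : Adm2 d k a := by
  have hd0 : (0 : ℝ) < d := by exact_mod_cast (hk.trans hkd)
  cases tab with
  | nil => simp [rTab] at h
  | cons row tab =>
    rw [rTab, Bool.and_eq_true, List.all_eq_true] at h
    have g0 : (K : ℝ) / 10000 ≤ a / d * k := by
      rw [div_mul_eq_mul_div, div_le_div_iff₀ (by norm_num) hd0]
      linarith only [h0]
    have g1 : a / d * k ≤ (H : ℝ) / 10000 := by
      rw [div_mul_eq_mul_div, div_le_div_iff₀ hd0 (by norm_num)]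
      linarith only [h1]
    obtain ⟨row', hm, h6, h7⟩ := rCover_row H (a / d * k) g1 (row :: tab) K h.2
      (Or.inr ⟨g0, by simp⟩)
    refine adm2_of_row d k hk hkd (qrow row') (fRow_sound d k cs38 cs38_ok row' (h.1 row' hm)) a ha
      ?_ ?_
    · show (((row'.1 : ℚ) / 10000 : ℚ) : ℝ) ≤ a / d * k
      push_cast
      exact h6
    · show a / d * k ≤ (((row'.2.1 : ℚ) / 10000 : ℚ) : ℝ)
      push_cast
      exact h7

end Vale.Agent.P018.R2.H677
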