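import Mathlib
import Vale.Agent.P018.R2.H677.Row

set_option linter.all false

/-! # P018: rows with constant weights (`mu`) besides the linear ones. -/

namespace Vale.Agent.P018.R2.H677

open Finset Vale.Agent.P018.K2 Vale.Agent.P018.K3

/-- the criterion with constant weight (to be proved) -/
def CritMu : Prop := ∀ (d k r : ℕ), 1 ≤ d → 1 ≤ k → 1 ≤ r → ∀ (a b mu : ℝ), 0 < a → 0 < b →
  0 ≤ mu → (1 + mu) ^ (r + 2) - mu ^ (r + 2) < b ^ r * ∑ s ∈ Finset.range (r + 2),
    (((r + 2).choose (s + 1) * (r + s - 1).choose s : ℕ) : ℝ) * mu ^ (r + 1 - s) *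
      (a / d * k) ^ s → Crit d k r a (a / d * b)

/-- steps with a general condition -/
def gSteps (ok : ℕ → ℚ × ℚ → Prop) : ℕ → ℚ → List (ℚ × ℚ) → Prop
  | _, _, [] => True
  | r, β, p :: l => (p.2 = β ∨ (p.2 < β ∧ ok r p)) ∧ gSteps ok (r + 1) p.2 l

theorem gtb_anti (ok : ℕ → ℚ × ℚ → Prop) (l : List (ℚ × ℚ)) : ∀ (r : ℕ) (β : ℚ),
    gSteps ok r β l → ∀ i, tb β l (i + 1) ≤ tb β l i := by
  induction l with
  | nil => intro r β _ i; exact le_rfl
  | cons p l ih =>
    intro r β h i
    cases i with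
    | zero =>
      show tb p.2 l 0 ≤ β
      rw [tb_zero]
      rcases h.1 with h1 | h1
      · exact h1.le
      · exact h1.1.le
    | succ i => exact ih (r + 1) p.2 h.2 i

theorem gtb_pos (ok : ℕ → ℚ × ℚ → Prop) (hok : ∀ r p, ok r p → 0 < p.2)
    (l : List (ℚ × ℚ)) : ∀ (r : ℕ) (β : ℚ), 0 < β → gSteps ok r β l → ∀ i, 0 < tb β l i := by
  induction l with
  | nil => intro r β hβ _ i; exact hβ
  | cons p l ih =>
    intro r β hβ h i
    cases i with
    | zero => rw [tb_zero]; exact hβ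
    | succ i =>
      refine ih (r + 1) p.2 ?_ h.2 i
      rcases h.1 with h1 | h1
      · rw [h1]; exact hβ
      · exact hok _ _ h1.2

theorem gtb_step (ok : ℕ → ℚ × ℚ → Prop) (l : List (ℚ × ℚ)) : ∀ (r : ℕ) (β : ℚ),
    gSteps ok r β l → ∀ i, tb β l (i + 1) < tb β l i → ∃ p : ℚ × ℚ, ok (r + i) p ∧
      p.2 = tb β l (i + 1) := by
  induction l with
  | nil => intro r β _ i h; exact absurd h (lt_irrefl _)
  | cons p l ih =>
    intro r β h i hi
    cases i with
    | zero =>
      have hi' : tb p.2 l 0 < β := hi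
      rw [tb_zero] at hi'
      rcases h.1 with h1 | h1
      · exact absurd h1 hi'.ne
      · refine ⟨p, h1.2, ?_⟩
        show p.2 = tb p.2 l 0
        rw [tb_zero]
    | succ i =>
      obtain ⟨q, h1, h2⟩ := ih (r + 1) p.2 h.2 i hi
      refine ⟨q, ?_, h2⟩
      rw [show r + (i + 1) = r + 1 + i by ring]
      exact h1

/-- steps each of which satisfies the criterion give admissibility. -/
theorem adm2_of_gSteps (d k : ℕ) (hk : 1 ≤ k) (hkd : k ≤ d) (a : ℝ) (ha0 : 0 < a) (κ1 : ℚ)
    (hr2 : a / d * k ≤ (κ1 : ℝ)) (l : List (ℚ × ℚ)) (h2 : l.length + 2 ≤ d)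
    (h3 : gSteps (fun r p => 0 < p.2 ∧ (1 ≤ r → Crit d k r a (a / d * (p.2 : ℝ)))) 2 1 l)
    (h4 : κ1 * (2 + (l.map Prod.snd).sum +
      ((d : ℚ) - 2 - l.length) * ((l.map Prod.snd).getLastD 1)) < k) : Adm2 d k a := by
  have hd1 : 1 ≤ d := hk.trans hkd
  have hd0R : (0 : ℝ) < d := by exact_mod_cast hd1
  have hkR : (0 : ℝ) < k := by exact_mod_cast hk
  obtain ⟨w, hw⟩ : ∃ w : ℝ, w = a / d := ⟨_, rfl⟩
  have hw0 : 0 < w := by rw [hw]; positivity
  obtain ⟨κ, hκ⟩ : ∃ κ : ℝ, κ = w * k := ⟨_, rfl⟩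
  have hκ0 : 0 < κ := by rw [hκ]; positivity
  rw [← hw, ← hκ] at hr2
  rw [← hw] at h3
  obtain ⟨β, hβ⟩ : ∃ β : ℕ → ℚ, β = tb 1 l := ⟨_, rfl⟩
  have hanti : ∀ i, β (i + 1) ≤ β i := by rw [hβ]; exact gtb_anti _ l 2 1 h3
  have hpos : ∀ i, 0 < β i := by
    rw [hβ]; exact gtb_pos _ (fun r p h => h.1) l 2 1 one_pos h3
  have hβ0 : β 0 = 1 := by rw [hβ, tb_zero]
  obtain ⟨L, hL⟩ : ∃ L : ℚ, L = (l.map Prod.snd).getLastD 1 := ⟨_, rfl⟩
  have hlast : ∀ i, l.length ≤ i → β i = L := by
    intro i hi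
    rw [hβ, hL, tb_ge l 1 i hi]
  refine ⟨fun r => w * (match r with
    | 0 => 1
    | r + 1 => (β r : ℝ)), ?_, ?_, ?_, ?_, ?_⟩
  · simp only [mul_one]
    exact hw
  · intro r
    cases r with
    | zero =>
      simp only
      rw [hβ0]
      simp
    | succ r =>
      simp only
      exact mul_le_mul_of_nonneg_left (by exact_mod_cast hanti r) hw0.le
  · rcases Nat.exists_eq_succ_of_ne_zero (by omega : d ≠ 0) with ⟨d', rfl⟩
    rw [Nat.succ_sub_one]
    cases d' with
    | zero => simpa using hw0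
    | succ r =>
      have : (0 : ℝ) < β r := by exact_mod_cast hpos r
      simp only
      positivity
  · intro r hr1' hr2' hlt
    obtain ⟨i, rfl⟩ : ∃ i, r = i + 1 := ⟨r - 1, by omega⟩
    rw [Nat.add_sub_cancel] at hlt
    cases i with
    | zero =>
      exfalso
      simp only [hβ0] at hlt
      simp at hlt
    | succ i =>
      simp only at hlt
      have hlt' : β (i + 1) < β i := by
        have := lt_of_mul_lt_mul_left hlt hw0.le
        exact_mod_cast this
      rw [hβ] at hlt'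
      obtain ⟨p, hp1, hp2⟩ := gtb_step _ l 2 1 h3 i hlt'
      have := hp1.2 (by omega)
      rw [show 2 + i = i + 1 + 1 by ring, hp2] at this
      simp only
      rw [hβ]
      exact this
  · obtain ⟨e, he⟩ : ∃ e, d = l.length + 2 + e := ⟨d - (l.length + 2), by omega⟩
    rw [← Finset.mul_sum]
    have hs1 : ∑ i ∈ range (l.length + 1), (β i : ℝ) = 1 + ((l.map Prod.snd).sum : ℚ) := by
      rw [← Rat.cast_sum, hβ, tb_sum l 1]
      push_cast
      ring
    have hsum : ∑ r ∈ range d, (match r with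
        | 0 => (1 : ℝ)
        | r + 1 => (β r : ℝ)) = 2 + ((l.map Prod.snd).sum : ℚ) + e * (L : ℝ) := by
      rw [he, show l.length + 2 + e = (l.length + 1 + e) + 1 by ring, sum_range_succ']
      simp only
      rw [sum_range_add]
      have hs2 : ∑ i ∈ range e, (β (l.length + 1 + i) : ℝ) = e * (L : ℝ) := by
        rw [sum_congr rfl fun i _ => by rw [hlast (l.length + 1 + i) (by omega)], sum_const,
          card_range, nsmul_eq_mul]
      rw [hs1, hs2]
      ring
    rw [hsum]
    obtain ⟨S, hS⟩ : ∃ S : ℝ, S = 2 + (((l.map Prod.snd).sum : ℚ) : ℝ) := ⟨_, rfl⟩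
    have hL0 : (0 : ℝ) < L := by
      rw [← hlast l.length le_rfl]
      exact_mod_cast hpos _
    have h4' : (κ1 : ℝ) * (S + ((d : ℝ) - 2 - l.length) * (L : ℝ)) < k := by
      rw [hS, hL]
      exact_mod_cast h4
    have hdR2 : (d : ℝ) = l.length + 2 + e := by exact_mod_cast he
    rw [← hS]
    have hSp : 0 ≤ S + e * (L : ℝ) := by
      have hs3 : (0 : ℝ) ≤ ∑ i ∈ range (l.length + 1), (β i : ℝ) :=
        Finset.sum_nonneg fun i _ => by exact_mod_cast (hpos i).le
      have h8 : 0 ≤ (e : ℝ) * (L : ℝ) := by (clear * - hL0; positivity)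
      rw [hs1] at hs3
      rw [hS]
      linarith only [h8, hs3]
    have h6 : (e : ℝ) = d - 2 - l.length := by linarith only [hdR2]
    have e3 : κ1 * (S + e * (L : ℝ)) < k := by
      rw [h6]
      exact h4'
    have e4 : w * (S + e * (L : ℝ)) * k < 1 * k := by
      calc w * (S + e * (L : ℝ)) * k = κ * (S + e * (L : ℝ)) := by rw [hκ]; ring
        _ ≤ κ1 * (S + e * (L : ℝ)) := mul_le_mul_of_nonneg_right hr2 hSp
        _ < k := e3
        _ = 1 * k := (one_mul _).symm
    exact lt_of_mul_lt_mul_right e4 hkR.le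

/-- the coefficients of the criterion with constant weight, `e = r + 1 - s` -/
def cmf (r e : ℕ) : ℕ := (r + 2).choose e * (2 * r - e).choose (r + 1 - e)

/-- one step with constant weight -/
noncomputable def muStep (K r : ℕ) (cl : List ℕ) (p : ℕ × ℕ) : Bool :=
  and (Nat.ble 1 p.2)
    (Nat.ble (Nat.succ (Nat.mul (Nat.sub (Nat.pow (Nat.add 10000 p.1) (Nat.add r 2))
      (Nat.pow p.1 (Nat.add r 2))) (Nat.pow 10000 (Nat.sub r 1))))
      (Nat.mul (Nat.pow p.2 r) (hv p.1 K cl 0 1)))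

theorem muStep_sound (hmu : CritMu) (d k K r : ℕ) (hd : 1 ≤ d) (hk : 1 ≤ k) (hr : 1 ≤ r) (a : ℝ)
    (ha : 0 < a) (hκ : ((K : ℚ) / 10000 : ℝ) ≤ a / d * k) (p : ℕ × ℕ)
    (h : muStep K r ((List.range (r + 2)).map (cmf r)) p = true) :
    0 < (qp p).2 ∧ Crit d k r a (a / d * ((qp p).2 : ℝ)) := by
  unfold muStep at h
  rw [Bool.and_eq_true, Nat.ble_eq, Nat.ble_eq] at h
  obtain ⟨h1, h2⟩ := h
  have h2' : ((10000 + p.1) ^ (r + 2) - p.1 ^ (r + 2)) * 10000 ^ (r - 1) <
      p.2 ^ r * hv p.1 K ((List.range (r + 2)).map (cmf r)) 0 1 := h2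
  rw [hv_eq, zero_mul, zero_add, one_mul, hev_fst] at h2'
  have hlen : ((List.range (r + 2)).map (cmf r)).length = r + 2 := by simp
  rw [hlen] at h2'
  have hp0 : (0 : ℝ) < p.2 := by exact_mod_cast h1
  refine ⟨?_, ?_⟩
  · show (0 : ℚ) < (p.2 : ℚ) / 10000
    have : (0 : ℚ) < p.2 := by exact_mod_cast h1
    positivity
  · have hb : (((qp p).2 : ℚ) : ℝ) = (p.2 : ℝ) / 10000 := by
      show (((p.2 : ℚ) / 10000 : ℚ) : ℝ) = _
      push_cast
      ring
    rw [hb]
    refine hmu d k r hd hk hr a ((p.2 : ℝ) / 10000) ((p.1 : ℝ) / 10000) ha (by positivity)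
      (by positivity) ?_
    have e1 : ∑ e ∈ range (r + 2), (((List.range (r + 2)).map (cmf r)).getD e 0 * p.1 ^ e *
        K ^ (r + 2 - 1 - e)) = ∑ s ∈ range (r + 2),
        ((r + 2).choose (s + 1) * (r + s - 1).choose s) * p.1 ^ (r + 1 - s) * K ^ s := by
      rw [← Finset.sum_range_reflect]
      refine sum_congr rfl fun s hs => ?_
      rw [mem_range] at hs
      have e2 : r + 2 - 1 - s = r + 1 - s := by omega
      have e3 : r + 2 - 1 - (r + 1 - s) = s := by omega
      rw [e2, e3]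
      congr 2
      rw [List.getD_eq_getElem _ _ (by simp; omega)]
      simp only [List.getElem_map, List.getElem_range]
      unfold cmf
      have e4 : (r + 2).choose (r + 1 - s) = (r + 2).choose (s + 1) := by
        rw [← Nat.choose_symm (show s + 1 ≤ r + 2 by omega)]
        congr 1
        omega
      have e5 : 2 * r - (r + 1 - s) = r + s - 1 := by omega
      have e6 : r + 1 - (r + 1 - s) = s := by omega
      rw [e4, e5, e6]
    rw [e1] at h2'
    -- to the reals
    have hle : p.1 ^ (r + 2) ≤ (10000 + p.1) ^ (r + 2) := Nat.pow_le_pow_left (by omega) _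
    have h3 : (((10000 + p.1 : ℕ) : ℝ) ^ (r + 2) - (p.1 : ℝ) ^ (r + 2)) * 10000 ^ (r - 1) <
        (p.2 : ℝ) ^ r * ∑ s ∈ range (r + 2),
          (((r + 2).choose (s + 1) * (r + s - 1).choose s : ℕ) : ℝ) *
            (p.1 : ℝ) ^ (r + 1 - s) * (K : ℝ) ^ s := by
      have h4 : (((((10000 + p.1) ^ (r + 2) - p.1 ^ (r + 2)) * 10000 ^ (r - 1) : ℕ)) : ℝ) <
        ((p.2 ^ r * ∑ s ∈ range (r + 2),
          ((r + 2).choose (s + 1) * (r + s - 1).choose s) * p.1 ^ (r + 1 - s) * K ^ s : ℕ) : ℝ) := by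
        exact_mod_cast h2'
      rw [Nat.cast_mul, Nat.cast_sub hle] at h4
      push_cast at h4
      push_cast
      exact h4
    have hT : (0 : ℝ) < 10000 := by norm_num
    have e7 : (1 + (p.1 : ℝ) / 10000) ^ (r + 2) - ((p.1 : ℝ) / 10000) ^ (r + 2) =
        ((((10000 + p.1 : ℕ) : ℝ) ^ (r + 2) - (p.1 : ℝ) ^ (r + 2)) * 10000 ^ (r - 1)) /
          (10000 ^ r * 10000 ^ (r + 1)) := by
      have e8 : (1 + (p.1 : ℝ) / 10000) = ((10000 + p.1 : ℕ) : ℝ) / 10000 := by
        push_cast
        field_simp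
      rw [e8, div_pow, div_pow, div_sub_div_same]
      have e9 : (10000 : ℝ) ^ r * 10000 ^ (r + 1) = 10000 ^ (r + 2) * 10000 ^ (r - 1) := by
        rw [← pow_add, ← pow_add]
        congr 1
        omega
      rw [e9, mul_div_mul_right _ _ (by positivity)]
    have e10 : ((p.2 : ℝ) / 10000) ^ r * ∑ s ∈ range (r + 2),
        (((r + 2).choose (s + 1) * (r + s - 1).choose s : ℕ) : ℝ) *
          ((p.1 : ℝ) / 10000) ^ (r + 1 - s) * ((K : ℝ) / 10000) ^ s =
        ((p.2 : ℝ) ^ r * ∑ s ∈ range (r + 2),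
          (((r + 2).choose (s + 1) * (r + s - 1).choose s : ℕ) : ℝ) *
            (p.1 : ℝ) ^ (r + 1 - s) * (K : ℝ) ^ s) / (10000 ^ r * 10000 ^ (r + 1)) := by
      rw [div_pow, mul_sum, mul_sum, sum_div]
      refine sum_congr rfl fun s hs => ?_
      rw [mem_range] at hs
      have e11 : (10000 : ℝ) ^ (r + 1) = 10000 ^ (r + 1 - s) * 10000 ^ s := by
        rw [← pow_add]
        congr 1
        omega
      rw [e11, div_pow, div_pow]
      field_simp
    have hK : (0 : ℝ) ≤ (K : ℝ) / 10000 := by positivity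
    have hκ' : (K : ℝ) / 10000 ≤ a / d * k := by
      push_cast at hκ
      exact hκ
    rw [e7]
    refine (div_lt_div_of_pos_right h3 (by positivity)).trans_le ?_
    rw [← e10]
    refine mul_le_mul_of_nonneg_left (sum_le_sum fun s _ => ?_) (by positivity)
    exact mul_le_mul_of_nonneg_left (pow_le_pow_left₀ hK hκ' s) (by positivity)

/-- entries `(t, m, b)`: `t = 0` linear weight, `t = 1` constant weight -/
noncomputable def mSteps (K : ℕ) : ℕ → ℕ → List (List ℕ) → List (List ℕ) →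
    List (ℕ × ℕ × ℕ) → Bool
  | _, _, _, _, [] => true
  | _, _, [], _, _ :: _ => false
  | r, B, c :: cs, es, p :: l =>
    and (or (Nat.beq p.2.2 B) (and (Nat.ble (Nat.succ p.2.2) B)
      (match p.1 with
        | 0 => fStep K r c p.2
        | _ + 1 => muStep K r (es.headD []) p.2)))
      (mSteps K (r + 1) p.2.2 cs es.tail l)

/-- `es` is a list of coefficient lists of `cmf`, starting from `r` (the rest is arbitrary lists
which are never accepted) -/
def esOK : ℕ → List (List ℕ) → Prop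
  | _, [] => True
  | r, e :: es => e = (List.range (r + 2)).map (cmf r) ∧ esOK (r + 1) es

theorem esOK_tail (r : ℕ) (es : List (List ℕ)) (h : esOK r es) : esOK (r + 1) es.tail := by
  cases es with
  | nil => trivial
  | cons e es => exact h.2

theorem muStep_nil (K r : ℕ) (p : ℕ × ℕ) : muStep K r [] p = false := by
  unfold muStep
  have h : hv p.1 K [] 0 1 = 0 := by rw [hv_eq]; simp [hev]
  rw [h]
  simp
  intro _
  rfl

theorem mSteps_sound (hmu : CritMu) (d k K : ℕ) (hd : 1 ≤ d) (hk : 1 ≤ k) (a : ℝ)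
    (ha : 0 < a) (hκ : ((K : ℚ) / 10000 : ℝ) ≤ a / d * k) (l : List (ℕ × ℕ × ℕ)) :
    ∀ (r B : ℕ) (cs es : List (List ℕ)), 1 ≤ r → csOK r cs → esOK r es →
    mSteps K r B cs es l = true →
      gSteps (fun r p => 0 < p.2 ∧ (1 ≤ r → Crit d k r a (a / d * (p.2 : ℝ)))) r
        ((B : ℚ) / 10000) (l.map fun p => qp p.2) := by
  induction l with
  | nil => intro r B cs es _ _ _ _; trivial
  | cons p l ih =>
    intro r B cs es hr hcs hes h
    cases cs with
    | nil => simp [mSteps] at h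
    | cons c cs =>
      rw [mSteps, Bool.and_eq_true, Bool.or_eq_true, Bool.and_eq_true, Nat.beq_eq,
        Nat.ble_eq] at h
      refine ⟨?_, ih (r + 1) p.2.2 cs es.tail (by omega) hcs.2 (esOK_tail r es hes) h.2⟩
      rcases h.1 with h1 | h1
      · left
        show (p.2.2 : ℚ) / 10000 = (B : ℚ) / 10000
        rw [h1]
      · right
        refine ⟨?_, ?_⟩
        · show (p.2.2 : ℚ) / 10000 < (B : ℚ) / 10000
          have h11 : p.2.2 < B := h1.1
          have : (p.2.2 : ℚ) < B := by exact_mod_cast h11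
          gcongr
        · have h2 := h1.2
          obtain ⟨t, m, b⟩ := p
          cases t with
          | zero =>
            simp only at h2
            rw [hcs.1] at h2
            have h3 := fStep_sound K r (m, b) h2
            have h4 := stepOK_pos h3
            exact ⟨h4.2.2.2.1, fun hr' => crit_of_step d k r hd hk hr' a ha (κ0 := (K : ℚ) / 10000)
              (by push_cast at hκ ⊢; exact hκ) h3⟩
          | succ t =>
            simp only at h2
            cases es with
            | nil =>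
              simp only [List.headD_nil, muStep_nil] at h2
              exact absurd h2 (by simp)
            | cons e es =>
              simp only [List.headD_cons] at h2
              rw [hes.1] at h2
              have h3 := muStep_sound hmu d k K r hd hk hr a ha hκ (m, b) h2
              exact ⟨h3.1, fun _ => h3.2⟩

/-- a row with both kinds of weights -/
noncomputable def mRow (d k : ℕ) (cs es : List (List ℕ))
    (row : ℕ × ℕ × List (ℕ × ℕ × ℕ)) : Bool :=
  decide (row.2.2.length + 2 ≤ d) && mSteps row.1 2 10000 cs es row.2.2 &&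
    decide (row.2.1 * (20000 + (row.2.2.map fun p => p.2.2).sum +
      (d - 2 - row.2.2.length) * ((row.2.2.map fun p => p.2.2).getLastD 10000)) < k * 100000000)

theorem adm2_of_mRow (hmu : CritMu) (d k : ℕ) (hk : 1 ≤ k) (hkd : k ≤ d) (cs es : List (List ℕ))
    (hcs : csOK 2 cs) (hes : esOK 2 es) (row : ℕ × ℕ × List (ℕ × ℕ × ℕ))
    (h : mRow d k cs es row = true) (a : ℝ) (ha : 0 < a)
    (h0 : (row.1 : ℝ) / 10000 ≤ a / d * k) (h1 : a / d * k ≤ (row.2.1 : ℝ) / 10000) :
    Adm2 d k a := by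
  unfold mRow at h
  simp only [Bool.and_eq_true, decide_eq_true_eq] at h
  obtain ⟨⟨h2, h3⟩, h4⟩ := h
  have hm : ((row.2.2.map fun p => qp p.2).map Prod.snd) =
      (row.2.2.map fun p => ((p.2.2 : ℕ) : ℚ) / 10000) := by
    rw [List.map_map]
    rfl
  have hl : (row.2.2.map fun p => qp p.2).length = row.2.2.length := by simp
  have hsum : ((row.2.2.map fun p => qp p.2).map Prod.snd).sum =
      ((row.2.2.map fun p => p.2.2).sum : ℕ) / (10000 : ℚ) := by
    rw [hm]
    generalize row.2.2 = l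
    induction l with
    | nil => simp
    | cons p l ih =>
      rw [List.map_cons, List.sum_cons, ih, List.map_cons, List.sum_cons]
      push_cast
      ring
  have hlast : ((row.2.2.map fun p => qp p.2).map Prod.snd).getLastD 1 =
      ((row.2.2.map fun p => p.2.2).getLastD 10000 : ℕ) / (10000 : ℚ) := by
    rw [hm]
    generalize row.2.2 = l
    rcases eq_or_ne l [] with hl | hl
    · rw [hl]; norm_num
    · obtain ⟨l', x, rfl⟩ : ∃ l' x, l = l' ++ [x] :=
        ⟨l.dropLast, l.getLast hl, (List.dropLast_append_getLast hl).symm⟩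
      simp [List.getLastD_eq_getLast?]
  refine adm2_of_gSteps d k hk hkd a ha ((row.2.1 : ℚ) / 10000) (by push_cast; exact h1)
    (row.2.2.map fun p => qp p.2) (by rw [hl]; exact h2) ?_ ?_
  · have := mSteps_sound hmu d k row.1 (hk.trans hkd) hk a ha (by push_cast; exact h0) row.2.2 2
      10000 cs es (by norm_num) hcs hes h3
    have e : ((10000 : ℕ) : ℚ) / 10000 = 1 := by norm_num
    rw [e] at this
    exact this
  · rw [hl, hlast, hsum]
    generalize (row.2.2.map fun p => p.2.2).sum = s at h4 ⊢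
    generalize (row.2.2.map fun p => p.2.2).getLastD 10000 = b at h4 ⊢
    have h5 : ((row.2.1 * (20000 + s + (d - 2 - row.2.2.length) * b) : ℕ) : ℚ) <
        ((k * 100000000 : ℕ) : ℚ) := by exact_mod_cast h4
    have h6 : ((d - 2 - row.2.2.length : ℕ) : ℚ) = (d : ℚ) - 2 - row.2.2.length := by
      rw [Nat.cast_sub (by omega), Nat.cast_sub (by omega)]
      push_cast
      ring
    rw [Nat.cast_mul, Nat.cast_add, Nat.cast_mul (d - 2 - row.2.2.length), h6] at h5
    push_cast at h5
    linarith only [h5]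

/-- the rows cover `[K, H]` (units `1/10000`) -/
def mCover (H : ℕ) : ℕ → List (ℕ × ℕ × List (ℕ × ℕ × ℕ)) → Bool
  | K, [] => decide (H ≤ K)
  | K, row :: tab => decide (row.1 ≤ K) && mCover H row.2.1 tab

theorem mCover_row (H : ℕ) (κ : ℝ) (hκ : κ ≤ (H : ℝ) / 10000)
    (tab : List (ℕ × ℕ × List (ℕ × ℕ × ℕ))) : ∀ K : ℕ, mCover H K tab = true →
      (K : ℝ) / 10000 < κ ∨ ((K : ℝ) / 10000 ≤ κ ∧ tab ≠ []) →
      ∃ row ∈ tab, (row.1 : ℝ) / 10000 ≤ κ ∧ κ ≤ (row.2.1 : ℝ) / 10000 := by
  induction tab with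
  | nil =>
    intro K h1 h2
    rw [mCover, decide_eq_true_eq] at h1
    rcases h2 with h2 | h2
    · have : (H : ℝ) ≤ K := by exact_mod_cast h1
      linarith
    · exact absurd rfl h2.2
  | cons row tab ih =>
    intro K h1 h2
    rw [mCover, Bool.and_eq_true, decide_eq_true_eq] at h1
    have h3 : (K : ℝ) / 10000 ≤ κ := by
      rcases h2 with h2 | h2
      · exact h2.le
      · exact h2.1
    have h4 : (row.1 : ℝ) ≤ K := by exact_mod_cast h1.1
    rcases le_or_gt κ ((row.2.1 : ℝ) / 10000) with h5 | h5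
    · exact ⟨row, List.mem_cons_self, by linarith, h5⟩
    · obtain ⟨row', h6, h7⟩ := ih row.2.1 h1.2 (Or.inl h5)
      exact ⟨row', List.mem_cons_of_mem _ h6, h7⟩

/-- a nonempty list of correct rows for `(d, k)` which covers `[K, H]` -/
noncomputable def mTab (d k K H : ℕ) (cs es : List (List ℕ)) :
    List (ℕ × ℕ × List (ℕ × ℕ × ℕ)) → Bool
  | [] => false
  | row :: tab => (row :: tab).all (mRow d k cs es) && mCover H K (row :: tab)

theorem adm2_of_mTab (hmu : CritMu) (d k K H : ℕ) (hk : 1 ≤ k) (hkd : k ≤ d)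
    (cs es : List (List ℕ)) (hcs : csOK 2 cs) (hes : esOK 2 es)
    (tab : List (ℕ × ℕ × List (ℕ × ℕ × ℕ))) (h : mTab d k K H cs es tab = true) (a : ℝ)
    (ha : 0 < a) (h0 : (K : ℝ) * d ≤ 10000 * k * a) (h1 : 10000 * k * a ≤ (H : ℝ) * d) :
    Adm2 d k a := by
  have hd0 : (0 : ℝ) < d := by exact_mod_cast (hk.trans hkd)
  cases tab with
  | nil => simp [mTab] at h
  | cons row tab =>
    rw [mTab, Bool.and_eq_true, List.all_eq_true] at h
    have g0 : (K : ℝ) / 10000 ≤ a / d * k := by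
      rw [div_mul_eq_mul_div, div_le_div_iff₀ (by norm_num) hd0]
      linarith only [h0]
    have g1 : a / d * k ≤ (H : ℝ) / 10000 := by
      rw [div_mul_eq_mul_div, div_le_div_iff₀ hd0 (by norm_num)]
      linarith only [h1]
    obtain ⟨row', hm, h6, h7⟩ := mCover_row H (a / d * k) g1 (row :: tab) K h.2
      (Or.inr ⟨g0, by simp⟩)
    exact adm2_of_mRow hmu d k hk hkd cs es hcs hes row' (h.1 row' hm) a ha h6 h7

end Vale.Agent.P018.R2.H677
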