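import Mathlib
import Vale.Agent.P018.R2.H677.MuRatio
import Vale.Agent.P018.R2.H312.Mu2

set_option linter.all false

/-! # P018: tables with constant weights: a table for `(d0, k)` gives all `(d, k)` with `d ≤ d0`. -/

namespace Vale.Agent.P018.R2.H677

open Finset Vale.Agent.P018.K2 Vale.Agent.P018.K3

theorem critMu : CritMu := fun d k r hd hk hr a b mu ha hb hmu h =>
  Vale.Agent.P018.R2.H312.crit_of_mu d k r hd hk hr a b mu ha hb hmu h

/-- steps each of which satisfies the criterion give admissibility. -/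
theorem adm2_of_gSteps_small (d0 d k : ℕ) (hd : d ≤ d0) (hk : 1 ≤ k) (hkd : k ≤ d) (a : ℝ)
    (ha0 : 0 < a) (κ1 : ℚ)
    (hr2 : a / d * k ≤ (κ1 : ℝ)) (l : List (ℚ × ℚ)) (h2 : l.length + 2 ≤ d0)
    (h3 : gSteps (fun r p => 0 < p.2 ∧ (1 ≤ r → Crit d k r a (a / d * (p.2 : ℝ)))) 2 1 l)
    (h4 : κ1 * (2 + (l.map Prod.snd).sum +
      ((d0 : ℚ) - 2 - l.length) * ((l.map Prod.snd).getLastD 1)) < k) : Adm2 d k a := by
  have hd1 : 1 ≤ d := hk.trans hkd
  have hd0R : (0 : ℝ) < d := by exact_mod_cast hd1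
  have hkR : (0 : ℝ) < k := by exact_mod_cast hk
  obtain ⟨w, hw⟩ : ∃ w : ℝ, w = a / d := ⟨_, rfl⟩
  have hw0 : 0 < w := by rw [hw]; positivity
  obtain ⟨κ, hκ⟩ : ∃ κ : ℝ, κ = w * k := ⟨_, rfl⟩
  have hκ0 : 0 < κ := by rw [hκ]; positivity
  rw [← hw, ← hκ] at hr2
  rw [← hw] at h3
  obtain ⟨β, hβ⟩ : ∃ β : ℕ → ℚ, β = tb 1 l := ⟨_, rfl⟩
  have hanti : ∀ i, β (i + 1) ≤ β i := by rw [hβ]; exact gtb_anti _ l 2 1 h3
  have hpos : ∀ i, 0 < β i := by
    rw [hβ]; exact gtb_pos _ (fun r p h => h.1) l 2 1 one_pos h3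
  have hβ0 : β 0 = 1 := by rw [hβ, tb_zero]
  obtain ⟨L, hL⟩ : ∃ L : ℚ, L = (l.map Prod.snd).getLastD 1 := ⟨_, rfl⟩
  have hlast : ∀ i, l.length ≤ i → β i = L := by
    intro i hi
    rw [hβ, hL, tb_ge l 1 i hi]
  refine ⟨fun r => w * (match r with
    | 0 => 1
    | r + 1 => (β r : ℝ)), ?_, ?_, ?_, ?_, ?_⟩
  · simp only [mul_one]
    exact hw
  · intro r
    cases r with
    | zero =>
      simp only
      rw [hβ0]
      simp
    | succ r =>
      simp only
      exact mul_le_mul_of_nonneg_left (by exact_mod_cast hanti r) hw0.le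
  · rcases Nat.exists_eq_succ_of_ne_zero (by omega : d ≠ 0) with ⟨d', rfl⟩
    rw [Nat.succ_sub_one]
    cases d' with
    | zero => simpa using hw0
    | succ r =>
      have : (0 : ℝ) < β r := by exact_mod_cast hpos r
      simp only
      positivity
  · intro r hr1' hr2' hlt
    obtain ⟨i, rfl⟩ : ∃ i, r = i + 1 := ⟨r - 1, by omega⟩
    rw [Nat.add_sub_cancel] at hlt
    cases i with
    | zero =>
      exfalso
      simp only [hβ0] at hlt
      simp at hlt
    | succ i =>
      simp only at hlt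
      have hlt' : β (i + 1) < β i := by
        have := lt_of_mul_lt_mul_left hlt hw0.le
        exact_mod_cast this
      rw [hβ] at hlt'
      obtain ⟨p, hp1, hp2⟩ := gtb_step _ l 2 1 h3 i hlt'
      have := hp1.2 (by omega)
      rw [show 2 + i = i + 1 + 1 by ring, hp2] at this
      simp only
      rw [hβ]
      exact this
  · obtain ⟨e, he⟩ : ∃ e, d0 = l.length + 2 + e := ⟨d0 - (l.length + 2), by omega⟩
    have hs1 : ∑ i ∈ range (l.length + 1), (β i : ℝ) = 1 + ((l.map Prod.snd).sum : ℚ) := by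
      rw [← Rat.cast_sum, hβ, tb_sum l 1]
      push_cast
      ring
    have hsum : ∑ r ∈ range d0, (match r with
        | 0 => (1 : ℝ)
        | r + 1 => (β r : ℝ)) = 2 + ((l.map Prod.snd).sum : ℚ) + e * (L : ℝ) := by
      rw [he, show l.length + 2 + e = (l.length + 1 + e) + 1 by ring, sum_range_succ']
      simp only
      rw [sum_range_add]
      have hs2 : ∑ i ∈ range e, (β (l.length + 1 + i) : ℝ) = e * (L : ℝ) := by
        rw [sum_congr rfl fun i _ => by rw [hlast (l.length + 1 + i) (by omega)], sum_const,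
          card_range, nsmul_eq_mul]
      rw [hs1, hs2]
      ring
    have hmono : ∑ r ∈ range d, w * (match r with
        | 0 => (1 : ℝ)
        | r + 1 => (β r : ℝ)) ≤ ∑ r ∈ range d0, w * (match r with
        | 0 => (1 : ℝ)
        | r + 1 => (β r : ℝ)) := by
      refine Finset.sum_le_sum_of_subset_of_nonneg
        (fun x hx => mem_range.2 ((mem_range.1 hx).trans_le hd)) fun r _ _ => ?_
      cases r with
      | zero => simp only [mul_one]; exact hw0.le
      | succ r =>
        have : (0 : ℝ) < β r := by exact_mod_cast hpos r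
        simp only
        positivity
    refine hmono.trans_lt ?_
    rw [← Finset.mul_sum]
    rw [hsum]
    obtain ⟨S, hS⟩ : ∃ S : ℝ, S = 2 + (((l.map Prod.snd).sum : ℚ) : ℝ) := ⟨_, rfl⟩
    have hL0 : (0 : ℝ) < L := by
      rw [← hlast l.length le_rfl]
      exact_mod_cast hpos _
    have h4' : (κ1 : ℝ) * (S + ((d0 : ℝ) - 2 - l.length) * (L : ℝ)) < k := by
      rw [hS, hL]
      exact_mod_cast h4
    have hdR2 : (d0 : ℝ) = l.length + 2 + e := by exact_mod_cast he
    rw [← hS]
    have hSp : 0 ≤ S + e * (L : ℝ) := by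
      have hs3 : (0 : ℝ) ≤ ∑ i ∈ range (l.length + 1), (β i : ℝ) :=
        Finset.sum_nonneg fun i _ => by exact_mod_cast (hpos i).le
      have h8 : 0 ≤ (e : ℝ) * (L : ℝ) := by (clear * - hL0; positivity)
      rw [hs1] at hs3
      rw [hS]
      linarith only [h8, hs3]
    have h6 : (e : ℝ) = d0 - 2 - l.length := by linarith only [hdR2]
    have e3 : κ1 * (S + e * (L : ℝ)) < k := by
      rw [h6]
      exact h4'
    have e4 : w * (S + e * (L : ℝ)) * k < 1 * k := by
      calc w * (S + e * (L : ℝ)) * k = κ * (S + e * (L : ℝ)) := by rw [hκ]; ring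
        _ ≤ κ1 * (S + e * (L : ℝ)) := mul_le_mul_of_nonneg_right hr2 hSp
        _ < k := e3
        _ = 1 * k := (one_mul _).symm
    exact lt_of_mul_lt_mul_right e4 hkR.le

theorem adm2_of_mRow_small (hmu : CritMu) (d0 d k : ℕ) (hd : d ≤ d0) (hk : 1 ≤ k) (hkd : k ≤ d) (cs es : List (List ℕ))
    (hcs : csOK 2 cs) (hes : esOK 2 es) (row : ℕ × ℕ × List (ℕ × ℕ × ℕ))
    (h : mRow d0 k cs es row = true) (a : ℝ) (ha : 0 < a)
    (h0 : (row.1 : ℝ) / 10000 ≤ a / d * k) (h1 : a / d * k ≤ (row.2.1 : ℝ) / 10000) :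
    Adm2 d k a := by
  unfold mRow at h
  simp only [Bool.and_eq_true, decide_eq_true_eq] at h
  obtain ⟨⟨h2, h3⟩, h4⟩ := h
  have hm : ((row.2.2.map fun p => qp p.2).map Prod.snd) =
      (row.2.2.map fun p => ((p.2.2 : ℕ) : ℚ) / 10000) := by
    rw [List.map_map]
    rfl
  have hl : (row.2.2.map fun p => qp p.2).length = row.2.2.length := by simp
  have hsum : ((row.2.2.map fun p => qp p.2).map Prod.snd).sum =
      ((row.2.2.map fun p => p.2.2).sum : ℕ) / (10000 : ℚ) := by
    rw [hm]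
    generalize row.2.2 = l
    induction l with
    | nil => simp
    | cons p l ih =>
      rw [List.map_cons, List.sum_cons, ih, List.map_cons, List.sum_cons]
      push_cast
      ring
  have hlast : ((row.2.2.map fun p => qp p.2).map Prod.snd).getLastD 1 =
      ((row.2.2.map fun p => p.2.2).getLastD 10000 : ℕ) / (10000 : ℚ) := by
    rw [hm]
    generalize row.2.2 = l
    rcases eq_or_ne l [] with hl | hl
    · rw [hl]; norm_num
    · obtain ⟨l', x, rfl⟩ : ∃ l' x, l = l' ++ [x] :=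
        ⟨l.dropLast, l.getLast hl, (List.dropLast_append_getLast hl).symm⟩
      simp [List.getLastD_eq_getLast?]
  refine adm2_of_gSteps_small d0 d k hd hk hkd a ha ((row.2.1 : ℚ) / 10000) (by push_cast; exact h1)
    (row.2.2.map fun p => qp p.2) (by rw [hl]; exact h2) ?_ ?_
  · have := mSteps_sound hmu d k row.1 (hk.trans hkd) hk a ha (by push_cast; exact h0) row.2.2 2
      10000 cs es (by norm_num) hcs hes h3
    have e : ((10000 : ℕ) : ℚ) / 10000 = 1 := by norm_num
    rw [e] at this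
    exact this
  · rw [hl, hlast, hsum]
    generalize (row.2.2.map fun p => p.2.2).sum = s at h4 ⊢
    generalize (row.2.2.map fun p => p.2.2).getLastD 10000 = b at h4 ⊢
    have h5 : ((row.2.1 * (20000 + s + (d0 - 2 - row.2.2.length) * b) : ℕ) : ℚ) <
        ((k * 100000000 : ℕ) : ℚ) := by exact_mod_cast h4
    have h6 : ((d0 - 2 - row.2.2.length : ℕ) : ℚ) = (d0 : ℚ) - 2 - row.2.2.length := by
      rw [Nat.cast_sub (by omega), Nat.cast_sub (by omega)]
      push_cast
      ring
    rw [Nat.cast_mul, Nat.cast_add, Nat.cast_mul (d0 - 2 - row.2.2.length), h6] at h5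
    push_cast at h5
    linarith only [h5]

/-- A table which covers `[K, H]`, `K / 10000 ≤ k / d0`, `1 ≤ H / 10000`, gives all `(d, k)` with
`d ≤ d0`, for all exponents. -/
theorem adm2_of_mTab_small (hmu : CritMu) (d0 k K H : ℕ) (hd00 : 1 ≤ d0)
    (hK : K * d0 ≤ k * 10000) (hH : 10000 ≤ H)
    (cs es : List (List ℕ)) (hcs : csOK 2 cs) (hes : esOK 2 es)
    (tab : List (ℕ × ℕ × List (ℕ × ℕ × ℕ))) (h : mTab d0 k K H cs es tab = true)
    (d : ℕ) (hk : 1 ≤ k) (hkd : k ≤ d) (hd : d ≤ d0) (a : ℝ)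
    (h0 : 1 ≤ a) (h1 : a ≤ (d : ℝ) / k) : Adm2 d k a := by
  have hd0 : (0 : ℝ) < d := by exact_mod_cast (hk.trans hkd)
  have hkR : (0 : ℝ) < k := by exact_mod_cast hk
  have hd0R : (0 : ℝ) < d0 := by exact_mod_cast hd00
  have ha : 0 < a := by linarith only [h0]
  cases tab with
  | nil => simp [mTab] at h
  | cons row tab =>
    rw [mTab, Bool.and_eq_true, List.all_eq_true] at h
    have g0 : (K : ℝ) / 10000 ≤ a / d * k := by
      have hKR : (K : ℝ) * d0 ≤ k * 10000 := by exact_mod_cast hK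
      have hdR : (d : ℝ) ≤ d0 := by exact_mod_cast hd
      have e1 : (K : ℝ) / 10000 ≤ k / d := by
        rw [div_le_div_iff₀ (by norm_num) hd0]
        refine le_trans ?_ hKR
        exact mul_le_mul_of_nonneg_left hdR (by positivity)
      refine e1.trans ?_
      rw [div_mul_eq_mul_div]
      exact div_le_div_of_nonneg_right (by nlinarith) hd0.le
    have g1 : a / d * k ≤ (H : ℝ) / 10000 := by
      have hHR : (10000 : ℝ) ≤ H := by exact_mod_cast hH
      have e1 : a / d * k ≤ 1 := by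
        rw [le_div_iff₀ hkR] at h1
        rw [div_mul_eq_mul_div, div_le_one hd0]
        exact h1
      refine e1.trans ?_
      rw [one_le_div (by norm_num)]
      exact hHR
    obtain ⟨row', hm, h6, h7⟩ := mCover_row H (a / d * k) g1 (row :: tab) K h.2
      (Or.inr ⟨g0, by simp⟩)
    exact adm2_of_mRow_small hmu d0 d k hd hk hkd cs es hcs hes row' (h.1 row' hm)
      a ha h6 h7

end Vale.Agent.P018.R2.H677
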