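import Mathlib
import Vale.Agent.P018.R2.H677.MuSmall
import Vale.Agent.P018.R2.H677.T26
import Vale.Agent.P018.R2.H677.T33
import Vale.Agent.P018.R2.H677.T37
import Vale.Agent.P018.R2.H677.T40
import Vale.Agent.P018.R2.H677.T44
import Vale.Agent.P018.R2.H677.T48
import Vale.Agent.P018.R2.H677.T52
import Vale.Agent.P018.R2.H677.T55
import Vale.Agent.P018.R2.H677.T59
import Vale.Agent.P018.R2.H677.T63
import Vale.Agent.P018.R2.H677.T67
import Vale.Agent.P018.R2.H677.T71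

set_option linter.all false

/-! # P018: new pairs `(d, k)` for which all exponents are admissible. -/

namespace Vale.Agent.P018.R2.H677

open Vale.Agent.P018.K2 Vale.Agent.P018.K3

/-- the base pairs -/
def newBase : List (ℕ × ℕ) :=
  [(26, 9), (33, 11), (37, 12), (40, 13), (44, 14), (48, 15), (52, 16), (55, 17), (59, 18), (63, 19), (67, 20), (71, 21)]

/-- `d ≤ d0` and `k = k0`, or `d ≥ d0` and `k / d ≥ k0 / d0`, for a base pair `(d0, k0)`. -/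
def InNew (d k : ℕ) : Prop :=
  ∃ p ∈ newBase, (d ≤ p.1 ∧ k = p.2) ∨ (p.1 ≤ d ∧ p.2 * d ≤ k * p.1)

theorem small_26_9 (d : ℕ) (hkd : 9 ≤ d) (hd : d ≤ 26) (a : ℝ) (h1 : 1 ≤ a)
    (h2 : a ≤ (d : ℝ) / (9 : ℕ)) : Adm2 d 9 a :=
  adm2_of_mTab_small critMu 26 9 3461 13268 (by norm_num) (by norm_num) (by norm_num)
    cs38 em12 cs38_ok em12_ok (w26_9.map (mdecRow 24)) w26_9_ok d (by norm_num) hkd hd a h1 h2

theorem small_33_11 (d : ℕ) (hkd : 11 ≤ d) (hd : d ≤ 33) (a : ℝ) (h1 : 1 ≤ a)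
    (h2 : a ≤ (d : ℝ) / (11 : ℕ)) : Adm2 d 11 a :=
  adm2_of_mTab_small critMu 33 11 3333 12173 (by norm_num) (by norm_num) (by norm_num)
    cs38 em12 cs38_ok em12_ok (w33_11.map (mdecRow 31)) w33_11_ok d (by norm_num) hkd hd a h1 h2

theorem small_37_12 (d : ℕ) (hkd : 12 ≤ d) (hd : d ≤ 37) (a : ℝ) (h1 : 1 ≤ a)
    (h2 : a ≤ (d : ℝ) / (12 : ℕ)) : Adm2 d 12 a :=
  adm2_of_mTab_small critMu 37 12 3243 10884 (by norm_num) (by norm_num) (by norm_num)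
    cs38 em12 cs38_ok em12_ok (w37_12.map (mdecRow 35)) w37_12_ok d (by norm_num) hkd hd a h1 h2

theorem small_40_13 (d : ℕ) (hkd : 13 ≤ d) (hd : d ≤ 40) (a : ℝ) (h1 : 1 ≤ a)
    (h2 : a ≤ (d : ℝ) / (13 : ℕ)) : Adm2 d 13 a :=
  adm2_of_mTab_small critMu 40 13 3250 11244 (by norm_num) (by norm_num) (by norm_num)
    cs38 em12 cs38_ok em12_ok (w40_13.map (mdecRow 37)) w40_13_ok d (by norm_num) hkd hd a h1 h2

theorem small_44_14 (d : ℕ) (hkd : 14 ≤ d) (hd : d ≤ 44) (a : ℝ) (h1 : 1 ≤ a)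
    (h2 : a ≤ (d : ℝ) / (14 : ℕ)) : Adm2 d 14 a :=
  adm2_of_mTab_small critMu 44 14 3181 10406 (by norm_num) (by norm_num) (by norm_num)
    cs38 em12 cs38_ok em12_ok (w44_14.map (mdecRow 37)) w44_14_ok d (by norm_num) hkd hd a h1 h2

theorem small_48_15 (d : ℕ) (hkd : 15 ≤ d) (hd : d ≤ 48) (a : ℝ) (h1 : 1 ≤ a)
    (h2 : a ≤ (d : ℝ) / (15 : ℕ)) : Adm2 d 15 a :=
  adm2_of_mTab_small critMu 48 15 3125 16000 (by norm_num) (by norm_num) (by norm_num)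
    cs38 em12 cs38_ok em12_ok (w48_15.map (mdecRow 37)) w48_15_ok d (by norm_num) hkd hd a h1 h2

theorem small_52_16 (d : ℕ) (hkd : 16 ≤ d) (hd : d ≤ 52) (a : ℝ) (h1 : 1 ≤ a)
    (h2 : a ≤ (d : ℝ) / (16 : ℕ)) : Adm2 d 16 a :=
  adm2_of_mTab_small critMu 52 16 3076 16000 (by norm_num) (by norm_num) (by norm_num)
    csl em12 csl_ok em12_ok (w52_16.map (mdecRow 50)) w52_16_ok d (by norm_num) hkd hd a h1 h2

theorem small_55_17 (d : ℕ) (hkd : 17 ≤ d) (hd : d ≤ 55) (a : ℝ) (h1 : 1 ≤ a)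
    (h2 : a ≤ (d : ℝ) / (17 : ℕ)) : Adm2 d 17 a :=
  adm2_of_mTab_small critMu 55 17 3090 16000 (by norm_num) (by norm_num) (by norm_num)
    csl em12 csl_ok em12_ok (w55_17.map (mdecRow 53)) w55_17_ok d (by norm_num) hkd hd a h1 h2

theorem small_59_18 (d : ℕ) (hkd : 18 ≤ d) (hd : d ≤ 59) (a : ℝ) (h1 : 1 ≤ a)
    (h2 : a ≤ (d : ℝ) / (18 : ℕ)) : Adm2 d 18 a :=
  adm2_of_mTab_small critMu 59 18 3050 16000 (by norm_num) (by norm_num) (by norm_num)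
    csl em12 csl_ok em12_ok (w59_18.map (mdecRow 57)) w59_18_ok d (by norm_num) hkd hd a h1 h2

theorem small_63_19 (d : ℕ) (hkd : 19 ≤ d) (hd : d ≤ 63) (a : ℝ) (h1 : 1 ≤ a)
    (h2 : a ≤ (d : ℝ) / (19 : ℕ)) : Adm2 d 19 a :=
  adm2_of_mTab_small critMu 63 19 3015 16000 (by norm_num) (by norm_num) (by norm_num)
    csl em12 csl_ok em12_ok (w63_19.map (mdecRow 61)) w63_19_ok d (by norm_num) hkd hd a h1 h2

theorem small_67_20 (d : ℕ) (hkd : 20 ≤ d) (hd : d ≤ 67) (a : ℝ) (h1 : 1 ≤ a)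
    (h2 : a ≤ (d : ℝ) / (20 : ℕ)) : Adm2 d 20 a :=
  adm2_of_mTab_small critMu 67 20 2985 11946 (by norm_num) (by norm_num) (by norm_num)
    csl em12 csl_ok em12_ok (w67_20.map (mdecRow 65)) w67_20_ok d (by norm_num) hkd hd a h1 h2

theorem small_71_21 (d : ℕ) (hkd : 21 ≤ d) (hd : d ≤ 71) (a : ℝ) (h1 : 1 ≤ a)
    (h2 : a ≤ (d : ℝ) / (21 : ℕ)) : Adm2 d 21 a :=
  adm2_of_mTab_small critMu 71 21 2957 16000 (by norm_num) (by norm_num) (by norm_num)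
    csl em12 csl_ok em12_ok (w71_21.map (mdecRow 69)) w71_21_ok d (by norm_num) hkd hd a h1 h2

/-- For the pairs `InNew d k` all exponents are admissible. -/
theorem adm_new (d k : ℕ) (hk : 1 ≤ k) (hkd : k ≤ d) (h : InNew d k) (a : ℝ) (h1 : 1 ≤ a)
    (h2 : a ≤ (d : ℝ) / k) : Adm2 d k a := by
  obtain ⟨p, hp, h⟩ := h
  simp only [newBase, List.mem_cons, List.not_mem_nil, or_false] at hp
  rcases hp with rfl | rfl | rfl | rfl | rfl | rfl | rfl | rfl | rfl | rfl | rfl | rfl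
  · rcases h with ⟨hd, rfl⟩ | ⟨hd, hr⟩
    · exact small_26_9 d hkd hd a h1 h2
    · exact ratio_26_9 critMu d k hk hkd hd hr a h1 h2
  · rcases h with ⟨hd, rfl⟩ | ⟨hd, hr⟩
    · exact small_33_11 d hkd hd a h1 h2
    · exact ratio_33_11 critMu d k hk hkd hd hr a h1 h2
  · rcases h with ⟨hd, rfl⟩ | ⟨hd, hr⟩
    · exact small_37_12 d hkd hd a h1 h2
    · exact ratio_37_12 critMu d k hk hkd hd hr a h1 h2
  · rcases h with ⟨hd, rfl⟩ | ⟨hd, hr⟩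
    · exact small_40_13 d hkd hd a h1 h2
    · exact ratio_40_13 critMu d k hk hkd hd hr a h1 h2
  · rcases h with ⟨hd, rfl⟩ | ⟨hd, hr⟩
    · exact small_44_14 d hkd hd a h1 h2
    · exact ratio_44_14 critMu d k hk hkd hd hr a h1 h2
  · rcases h with ⟨hd, rfl⟩ | ⟨hd, hr⟩
    · exact small_48_15 d hkd hd a h1 h2
    · exact ratio_48_15 critMu d k hk hkd hd hr a h1 h2
  · rcases h with ⟨hd, rfl⟩ | ⟨hd, hr⟩
    · exact small_52_16 d hkd hd a h1 h2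
    · exact ratio_52_16 critMu d k hk hkd hd hr a h1 h2
  · rcases h with ⟨hd, rfl⟩ | ⟨hd, hr⟩
    · exact small_55_17 d hkd hd a h1 h2
    · exact ratio_55_17 critMu d k hk hkd hd hr a h1 h2
  · rcases h with ⟨hd, rfl⟩ | ⟨hd, hr⟩
    · exact small_59_18 d hkd hd a h1 h2
    · exact ratio_59_18 critMu d k hk hkd hd hr a h1 h2
  · rcases h with ⟨hd, rfl⟩ | ⟨hd, hr⟩
    · exact small_63_19 d hkd hd a h1 h2
    · exact ratio_63_19 critMu d k hk hkd hd hr a h1 h2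
  · rcases h with ⟨hd, rfl⟩ | ⟨hd, hr⟩
    · exact small_67_20 d hkd hd a h1 h2
    · exact ratio_67_20 critMu d k hk hkd hd hr a h1 h2
  · rcases h with ⟨hd, rfl⟩ | ⟨hd, hr⟩
    · exact small_71_21 d hkd hd a h1 h2
    · exact ratio_71_21 critMu d k hk hkd hd hr a h1 h2

end Vale.Agent.P018.R2.H677
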