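import Mathlib
import Vale.Agent.P018.R2.H677.MuRow

set_option linter.all false

/-! # P018: the coefficient lists of the constant weights, `r = 2, ..., 12`. -/

namespace Vale.Agent.P018.R2.H677

open Vale.Agent.P018.K2 Vale.Agent.P018.K3

/-- `C(r+2,e) C(2r-e,r+1-e)`, `e = 0, ..., r+1` -/
def em12 : List (List ℕ) :=
  [[4, 12, 12, 4],
   [15, 50, 60, 30, 5],
   [56, 210, 300, 200, 60, 6],
   [210, 882, 1470, 1225, 525, 105, 7],
   [792, 3696, 7056, 7056, 3920, 1176, 168, 8],
   [3003, 15444, 33264, 38808, 26460, 10584, 2352, 252, 9],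
   [11440, 64350, 154440, 205920, 166320, 83160, 25200, 4320, 360, 10],
   [43758, 267410, 707850, 1061775, 990990, 594594, 228690, 54450, 7425, 495, 11],
   [167960, 1108536, 3208920, 5348200, 5662800, 3963960, 1849848, 566280, 108900, 12100, 660, 12],
   [646646, 4585308, 14410968, 26420108, 31286970, 25029576, 13741728, 5153148, 1288287, 204490, 18876, 858, 13],
   [2496144, 18929092, 64194312, 128388624, 168127960, 151315164, 95567472, 42474432, 13117104, 2732730, 364364, 28392, 1092, 14]]

/-- the coefficient with factorials -/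
def cmq (r e : ℕ) : ℕ := ((r + 2).descFactorial e / e.factorial) *
  ((2 * r - e).descFactorial (r + 1 - e) / (r + 1 - e).factorial)

theorem cmq_eq (r e : ℕ) : cmq r e = cmf r e := by
  unfold cmq cmf
  rw [Nat.choose_eq_descFactorial_div_factorial, Nat.choose_eq_descFactorial_div_factorial]

/-- boolean check -/
def esB : ℕ → List (List ℕ) → Bool
  | _, [] => true
  | r, c :: cs => decide (c = (List.range (r + 2)).map (cmq r)) && esB (r + 1) cs

theorem esB_sound (es : List (List ℕ)) : ∀ r : ℕ, esB r es = true → esOK r es := by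
  induction es with
  | nil => intro r _; trivial
  | cons c es ih =>
    intro r h
    rw [esB, Bool.and_eq_true, decide_eq_true_eq] at h
    refine ⟨?_, ih _ h.2⟩
    rw [h.1]
    exact List.map_congr_left fun e _ => cmq_eq r e

theorem em12_ok : esOK 2 em12 := esB_sound em12 2 (by decide +kernel)

/-- unpack the steps -/
def mdec : ℕ → ℕ → List (ℕ × ℕ × ℕ)
  | 0, _ => []
  | l + 1, n => (n % 2, n / 2 % 1048576, n / 2097152 % 16384) :: mdec l (n / 68719476736)

/-- unpack a row -/
def mdecRow (len n : ℕ) : ℕ × ℕ × List (ℕ × ℕ × ℕ) :=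
  (n % 16384, n / 16384 % 16384, mdec len (n / 268435456))

end Vale.Agent.P018.R2.H677
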